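import Mathlib

/-!
# Kemperman's inequality, union form

For finite subsets `A`, `C` of a group, both containing `1`, one has `|A ∪ C| ≤ |A * C⁻¹|`.
Proof by the two e-transforms `(A ∪ A e, C ∩ C e)` and `(A ∩ A e⁻¹, C ∪ C e⁻¹)`.
-/

open scoped Pointwise

namespace Vale.Agent.P038

variable {G : Type*} [Group G] [DecidableEq G]

/-- Right translate of a finite set. -/
def rt (A : Finset G) (e : G) : Finset G := A.image (fun x => x * e)

lemma mem_rt {A : Finset G} {e x : G} : x ∈ rt A e ↔ x * e⁻¹ ∈ A := by
  unfold rt
  constructor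
  · intro h
    rcases Finset.mem_image.1 h with ⟨a, ha, rfl⟩
    simpa using ha
  · intro h
    exact Finset.mem_image.2 ⟨x * e⁻¹, h, by simp⟩

lemma card_rt (A : Finset G) (e : G) : (rt A e).card = A.card := by
  unfold rt
  exact Finset.card_image_of_injective _ (mul_left_injective e)

lemma rt_inv_rt (A : Finset G) (e : G) : rt (rt A e⁻¹) e = A := by
  ext x
  simp [mem_rt]

/-- The sum of the sizes of the unions after the two e-transforms is at least twice the old size. -/
lemma card_transform_sum (A C : Finset G) (e : G) :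
    2 * (A ∪ C).card ≤
      ((A ∪ rt A e) ∪ (C ∩ rt C e)).card + ((A ∩ rt A e⁻¹) ∪ (C ∪ rt C e⁻¹)).card := by
  classical
  set U := A ∪ C with hU
  set P := (A ∪ rt A e) ∪ (C ∩ rt C e) with hP
  set Q' := (A ∩ rt A e⁻¹) ∪ (C ∪ rt C e⁻¹) with hQ'
  set Q := rt Q' e with hQ
  have hQcard : Q.card = Q'.card := card_rt _ _
  have hmemQ : ∀ x, x ∈ Q ↔ (x ∈ rt A e ∧ x ∈ A) ∨ (x ∈ rt C e ∨ x ∈ C) := by
    intro x
    rw [hQ, mem_rt, hQ']
    simp only [Finset.mem_union, Finset.mem_inter, mem_rt, inv_inv, inv_mul_cancel_right]
  have hmemP : ∀ x, x ∈ P ↔ (x ∈ A ∨ x ∈ rt A e) ∨ (x ∈ C ∧ x ∈ rt C e) := by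
    intro x
    simp only [hP, Finset.mem_union, Finset.mem_inter]
  have h1 : U ∪ rt U e ⊆ P ∪ Q := by
    intro x hx
    simp only [Finset.mem_union, hU, mem_rt] at hx
    simp only [Finset.mem_union, hmemP, hmemQ, mem_rt]
    tauto
  have h2 : U ∩ rt U e ⊆ P ∩ Q := by
    intro x hx
    simp only [Finset.mem_inter, Finset.mem_union, hU, mem_rt] at hx
    simp only [Finset.mem_inter, hmemP, hmemQ, mem_rt]
    tauto
  have h3 := Finset.card_le_card h1
  have h4 := Finset.card_le_card h2
  have h5 := Finset.card_union_add_card_inter U (rt U e)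
  have h6 := Finset.card_union_add_card_inter P Q
  have h7 : (rt U e).card = U.card := card_rt _ _
  omega

lemma mul_inv_transform1 (A C : Finset G) (e : G) :
    (A ∪ rt A e) * (C ∩ rt C e)⁻¹ ⊆ A * C⁻¹ := by
  intro x hx
  rcases Finset.mem_mul.1 hx with ⟨a, ha, c', hc', rfl⟩
  have hc'' : c'⁻¹ ∈ C ∩ rt C e := by simpa using Finset.mem_inv'.1 hc'
  rcases Finset.mem_inter.1 hc'' with ⟨hcC, hcR⟩
  rcases Finset.mem_union.1 ha with ha | ha
  · exact Finset.mem_mul.2 ⟨a, ha, c', by simpa [Finset.mem_inv'] using hcC, rfl⟩
  · refine Finset.mem_mul.2 ⟨a * e⁻¹, mem_rt.1 ha, e * c', ?_, by group⟩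
    have : c'⁻¹ * e⁻¹ ∈ C := mem_rt.1 hcR
    have h2 : (e * c')⁻¹ ∈ C := by simpa [mul_inv_rev] using this
    exact Finset.mem_inv'.2 h2

lemma mul_inv_transform2 (A C : Finset G) (e : G) :
    (A ∩ rt A e⁻¹) * (C ∪ rt C e⁻¹)⁻¹ ⊆ A * C⁻¹ := by
  intro x hx
  rcases Finset.mem_mul.1 hx with ⟨a, ha, c', hc', rfl⟩
  have hc'' : c'⁻¹ ∈ C ∪ rt C e⁻¹ := by simpa using Finset.mem_inv'.1 hc'
  rcases Finset.mem_inter.1 ha with ⟨haA, haR⟩
  rcases Finset.mem_union.1 hc'' with hcC | hcR
  · exact Finset.mem_mul.2 ⟨a, haA, c', by simpa [Finset.mem_inv'] using hcC, rfl⟩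
  · have h1 : a * e ∈ A := by simpa [mem_rt] using haR
    have h2 : c'⁻¹ * e ∈ C := by simpa [mem_rt] using hcR
    refine Finset.mem_mul.2 ⟨a * e, h1, e⁻¹ * c', ?_, by group⟩
    have h3 : (e⁻¹ * c')⁻¹ ∈ C := by simpa [mul_inv_rev] using h2
    exact Finset.mem_inv'.2 h3

/-- Main induction: no counterexample with `|A * C⁻¹| ≤ m < |A ∪ C|`. -/
lemma kemperman_aux (m : ℕ) :
    ∀ N : ℕ, ∀ A C : Finset G, 1 ∈ A → 1 ∈ C → (A * C⁻¹).card ≤ m →
      (2 * m - (A ∪ C).card) * (2 * m + 1) + (A.card + m - C.card) = N →
      (A ∪ C).card ≤ m := by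
  intro N
  induction N using Nat.strong_induction_on with
  | _ N ih =>
    intro A C hA hC hm hN
    by_contra hlt
    push Not at hlt
    -- size bounds
    have hAm : A.card ≤ m := by
      refine le_trans (Finset.card_le_card ?_) hm
      intro a ha
      exact Finset.mem_mul.2 ⟨a, ha, 1, by simpa [Finset.mem_inv'] using hC, by simp⟩
    have hCm : C.card ≤ m := by
      have : (C⁻¹).card ≤ m := by
        refine le_trans (Finset.card_le_card ?_) hm
        intro c hc
        exact Finset.mem_mul.2 ⟨1, hA, c, hc, by simp⟩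
      simpa [Finset.card_inv] using this
    have hU2 : (A ∪ C).card ≤ 2 * m := by
      have := Finset.card_union_le A C
      omega
    by_cases hcase : ∀ e ∈ A, e⁻¹ ∈ C → (rt A e = A ∧ rt C e = C)
    · -- trivial bound
      have hsub : A ∩ C⁻¹ ⊆ A ∩ C := by
        intro e he
        rcases Finset.mem_inter.1 he with ⟨heA, heC⟩
        have hinv : e⁻¹ ∈ C := by simpa using Finset.mem_inv'.1 heC
        have hst := (hcase e heA hinv).2
        have : e ∈ rt C e := by
          rw [mem_rt]; simpa using hC
        rw [hst] at this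
        exact Finset.mem_inter.2 ⟨heA, this⟩
      have hcard1 := Finset.card_le_card hsub
      have hcard2 := Finset.card_union_add_card_inter A C
      have hcard3 := Finset.card_union_add_card_inter A (C⁻¹)
      have hcard4 : (C⁻¹).card = C.card := Finset.card_inv _
      have hprod : A ∪ C⁻¹ ⊆ A * C⁻¹ := by
        intro x hx
        rcases Finset.mem_union.1 hx with hx | hx
        · exact Finset.mem_mul.2 ⟨x, hx, 1, by simpa [Finset.mem_inv'] using hC, by simp⟩
        · exact Finset.mem_mul.2 ⟨1, hA, x, hx, by simp⟩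
      have hcard5 := Finset.card_le_card hprod
      omega
    · push Not at hcase
      obtain ⟨e, heA, heC, hne⟩ := hcase
      -- the two transforms
      set A1 := A ∪ rt A e with hA1
      set C1 := C ∩ rt C e with hC1
      set A2 := A ∩ rt A e⁻¹ with hA2
      set C2 := C ∪ rt C e⁻¹ with hC2
      have h1A1 : (1 : G) ∈ A1 := Finset.mem_union_left _ hA
      have h1C1 : (1 : G) ∈ C1 := by
        refine Finset.mem_inter.2 ⟨hC, ?_⟩
        rw [mem_rt]; simpa using heC
      have h1A2 : (1 : G) ∈ A2 := by
        refine Finset.mem_inter.2 ⟨hA, ?_⟩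
        rw [mem_rt]; simpa using heA
      have h1C2 : (1 : G) ∈ C2 := Finset.mem_union_left _ hC
      have hprod1 : (A1 * C1⁻¹).card ≤ m :=
        le_trans (Finset.card_le_card (mul_inv_transform1 A C e)) hm
      have hprod2 : (A2 * C2⁻¹).card ≤ m :=
        le_trans (Finset.card_le_card (mul_inv_transform2 A C e)) hm
      have hsum : 2 * (A ∪ C).card ≤ (A1 ∪ C1).card + (A2 ∪ C2).card := card_transform_sum A C e
      -- bounds for the new pairs
      have hA2le : A2.card ≤ A.card := Finset.card_le_card Finset.inter_subset_left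
      have hC2le : C.card ≤ C2.card := Finset.card_le_card Finset.subset_union_left
      have hstrict : A2.card + C.card < A.card + C2.card := by
        by_contra hcon
        push Not at hcon
        have heqA : A2.card = A.card := by omega
        have heqC : C2.card = C.card := by omega
        have hAeq : A2 = A :=
          Finset.eq_of_subset_of_card_le (s := A2) (t := A) Finset.inter_subset_left heqA.ge
        have hCeq : C2 = C :=
          (Finset.eq_of_subset_of_card_le (s := C) (t := C2) Finset.subset_union_left heqC.le).symm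
        apply hne
        · -- rt A e = A
          have hsubA : A ⊆ rt A e⁻¹ := by
            intro x hx
            rw [← hAeq] at hx
            exact (Finset.mem_inter.1 hx).2
          have hcardA : (rt A e⁻¹).card = A.card := card_rt _ _
          have hEq : A = rt A e⁻¹ := Finset.eq_of_subset_of_card_le hsubA (by omega)
          calc rt A e = rt (rt A e⁻¹) e := by rw [← hEq]
            _ = A := rt_inv_rt A e
        · have hsubC : rt C e⁻¹ ⊆ C := by
            intro x hx
            rw [← hCeq]
            exact Finset.mem_union_right _ hx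
          have hcardC : (rt C e⁻¹).card = C.card := card_rt _ _
          have hEq : rt C e⁻¹ = C := Finset.eq_of_subset_of_card_le hsubC (by omega)
          calc rt C e = rt (rt C e⁻¹) e := by rw [hEq]
            _ = C := rt_inv_rt C e
      by_cases hc2 : (A ∪ C).card ≤ (A2 ∪ C2).card
      · -- use the second transform
        have hA2m : A2.card ≤ m := le_trans hA2le hAm
        have hU2' : (A2 ∪ C2).card ≤ 2 * m := by
          have := Finset.card_union_le A2 C2
          have hC2m : C2.card ≤ m := by
            have : (C2⁻¹).card ≤ m := by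
              refine le_trans (Finset.card_le_card ?_) hprod2
              intro c hc
              exact Finset.mem_mul.2 ⟨1, h1A2, c, hc, by simp⟩
            simpa [Finset.card_inv] using this
          omega
        have hC2m : C2.card ≤ m := by
          have : (C2⁻¹).card ≤ m := by
            refine le_trans (Finset.card_le_card ?_) hprod2
            intro c hc
            exact Finset.mem_mul.2 ⟨1, h1A2, c, hc, by simp⟩
          simpa [Finset.card_inv] using this
        have hlt' : (2 * m - (A2 ∪ C2).card) * (2 * m + 1) + (A2.card + m - C2.card) < N := by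
          have hfirst : (2 * m - (A2 ∪ C2).card) * (2 * m + 1) ≤
              (2 * m - (A ∪ C).card) * (2 * m + 1) := by
            apply Nat.mul_le_mul_right
            omega
          have hsecond : A2.card + m - C2.card < A.card + m - C.card := by omega
          omega
        have := ih _ hlt' A2 C2 h1A2 h1C2 hprod2 rfl
        omega
      · -- use the first transform
        push Not at hc2
        have hgt : (A ∪ C).card < (A1 ∪ C1).card := by omega
        have hA1m : A1.card ≤ m := by
          refine le_trans (Finset.card_le_card ?_) hprod1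
          intro a ha
          exact Finset.mem_mul.2 ⟨a, ha, 1, by simpa [Finset.mem_inv'] using h1C1, by simp⟩
        have hC1m : C1.card ≤ m := by
          have : (C1⁻¹).card ≤ m := by
            refine le_trans (Finset.card_le_card ?_) hprod1
            intro c hc
            exact Finset.mem_mul.2 ⟨1, h1A1, c, hc, by simp⟩
          simpa [Finset.card_inv] using this
        have hU1 : (A1 ∪ C1).card ≤ 2 * m := by
          have := Finset.card_union_le A1 C1
          omega
        have hlt' : (2 * m - (A1 ∪ C1).card) * (2 * m + 1) + (A1.card + m - C1.card) < N := by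
          have hfirst : (2 * m - (A1 ∪ C1).card) + 1 ≤ 2 * m - (A ∪ C).card := by omega
          have hmul : ((2 * m - (A1 ∪ C1).card) + 1) * (2 * m + 1) ≤
              (2 * m - (A ∪ C).card) * (2 * m + 1) := Nat.mul_le_mul_right _ hfirst
          have hsecond : A1.card + m - C1.card ≤ 2 * m := by omega
          have hexp : ((2 * m - (A1 ∪ C1).card) + 1) * (2 * m + 1) =
              (2 * m - (A1 ∪ C1).card) * (2 * m + 1) + (2 * m + 1) := by ring
          omega
        have := ih _ hlt' A1 C1 h1A1 h1C1 hprod1 rfl
        omega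

/-- **Kemperman's inequality** (union form): if `1 ∈ A` and `1 ∈ C`, then
`|A ∪ C| ≤ |A * C⁻¹|`. -/
theorem kemperman_union (A C : Finset G) (hA : 1 ∈ A) (hC : 1 ∈ C) :
    (A ∪ C).card ≤ (A * C⁻¹).card :=
  kemperman_aux _ _ A C hA hC le_rfl rfl

end Vale.Agent.P038
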