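import Mathlib
import Vale.Agent.P038.Kemperman

/-!
# Seymour's second neighbourhood conjecture for vertex-transitive oriented graphs

Apply Kemperman's inequality inside the automorphism group.
-/

open scoped Pointwise

namespace Vale.Agent.P038

variable {V : Type*}

/-- Automorphism group of a relation. -/
def autGroup (r : V → V → Prop) : Subgroup (Equiv.Perm V) where
  carrier := {σ | ∀ x y, r (σ x) (σ y) ↔ r x y}
  mul_mem' := by
    intro a b ha hb x y
    simp only [Equiv.Perm.coe_mul, Function.comp_apply]
    exact (ha _ _).trans (hb _ _)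
  one_mem' := by
    intro x y
    simp
  inv_mem' := by
    intro a ha x y
    have := ha (a⁻¹ x) (a⁻¹ y)
    simpa using this.symm

section Main

variable [Fintype V] [DecidableEq V] (r : V → V → Prop) [DecidableRel r]

/-- Out-neighbourhood. -/
def outF (v : V) : Finset V := Finset.univ.filter (fun u => r v u)

/-- In-neighbourhood. -/
def inF (v : V) : Finset V := Finset.univ.filter (fun u => r u v)

open Classical in
/-- Second out-neighbourhood. -/
noncomputable def secF (v : V) : Finset V :=
  Finset.univ.filter (fun w => w ≠ v ∧ ¬ r v w ∧ ∃ u, r v u ∧ r u w)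

variable {r}

lemma card_outF_eq (hT : ∀ a b, ∃ σ : V ≃ V, (∀ x y, r (σ x) (σ y) ↔ r x y) ∧ σ a = b) (a b : V) :
    (outF r a).card = (outF r b).card := by
  obtain ⟨σ, hσ, rfl⟩ := hT a b
  have : outF r (σ a) = (outF r a).image σ := by
    ext u
    simp only [outF, Finset.mem_filter, Finset.mem_univ, true_and, Finset.mem_image]
    constructor
    · intro h
      refine ⟨σ.symm u, ?_, by simp⟩
      have := (hσ a (σ.symm u)).1 (by simpa using h)
      exact this
    · rintro ⟨x, hx, rfl⟩
      exact (hσ _ _).2 hx
  rw [this, Finset.card_image_of_injective _ σ.injective]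

lemma card_inF_eq (hT : ∀ a b, ∃ σ : V ≃ V, (∀ x y, r (σ x) (σ y) ↔ r x y) ∧ σ a = b) (a b : V) :
    (inF r a).card = (inF r b).card := by
  obtain ⟨σ, hσ, rfl⟩ := hT a b
  have : inF r (σ a) = (inF r a).image σ := by
    ext u
    simp only [inF, Finset.mem_filter, Finset.mem_univ, true_and, Finset.mem_image]
    constructor
    · intro h
      refine ⟨σ.symm u, ?_, by simp⟩
      have := (hσ (σ.symm u) a).1 (by simpa using h)
      exact this
    · rintro ⟨x, hx, rfl⟩
      exact (hσ _ _).2 hx
  rw [this, Finset.card_image_of_injective _ σ.injective]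

lemma sum_out_eq_sum_in : ∑ v, (outF r v).card = ∑ v, (inF r v).card := by
  simp only [outF, inF, Finset.card_filter]
  rw [Finset.sum_comm]

lemma card_outF_eq_card_inF
    (hT : ∀ a b, ∃ σ : V ≃ V, (∀ x y, r (σ x) (σ y) ↔ r x y) ∧ σ a = b) (v : V) :
    (outF r v).card = (inF r v).card := by
  have h := sum_out_eq_sum_in (r := r)
  have h1 : ∑ u, (outF r u).card = Fintype.card V * (outF r v).card := by
    rw [Finset.sum_congr rfl (fun u _ => card_outF_eq hT u v)]
    simp
  have h2 : ∑ u, (inF r u).card = Fintype.card V * (inF r v).card := by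
    rw [Finset.sum_congr rfl (fun u _ => card_inF_eq hT u v)]
    simp
  rw [h1, h2] at h
  have hpos : 0 < Fintype.card V := Fintype.card_pos_iff.2 ⟨v⟩
  exact Nat.eq_of_mul_eq_mul_left hpos h

open Classical in
/-- Key inequality: `|N⁻(v)| ≤ |N²(v)|` in a vertex-transitive oriented graph. -/
lemma card_inF_le_card_secF
    (hasym : ∀ x y, r x y → ¬ r y x)
    (hT : ∀ a b, ∃ σ : V ≃ V, (∀ x y, r (σ x) (σ y) ↔ r x y) ∧ σ a = b) (v : V) :
    (inF r v).card ≤ (secF r v).card := by
  classical
  letI : Fintype (autGroup r) := Fintype.ofFinite _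
  -- evaluation map
  let π : autGroup r → V := fun g => (g : Equiv.Perm V) v
  have hg : ∀ (g : autGroup r) x y, r ((g : Equiv.Perm V) x) ((g : Equiv.Perm V) y) ↔ r x y :=
    fun g x y => g.2 x y
  -- fibres all have the same size
  let F : V → Finset (autGroup r) := fun u => Finset.univ.filter (fun g => π g = u)
  have hF : ∀ u, (F u).card = (F v).card := by
    intro u
    obtain ⟨σ, hσ, hσv⟩ := hT v u
    let τ : autGroup r := ⟨σ, hσ⟩
    have hτ : ∀ x, (τ : Equiv.Perm V) x = σ x := fun _ => rfl
    have : F u = (F v).image (fun g => τ * g) := by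
      ext g
      simp only [F, Finset.mem_filter, Finset.mem_univ, true_and, Finset.mem_image]
      constructor
      · intro h
        refine ⟨τ⁻¹ * g, ?_, by simp⟩
        have h1 : π (τ⁻¹ * g) = (τ⁻¹ : autGroup r).1 (π g) := rfl
        rw [h1, h]
        have : (τ⁻¹ : autGroup r).1 ((τ : Equiv.Perm V) v) = v := by
          change (τ.1)⁻¹ (τ.1 v) = v
          simp
        rw [← hσv]
        exact this
      · rintro ⟨h, hh, rfl⟩
        have h1 : π (τ * h) = (τ : Equiv.Perm V) (π h) := rfl
        rw [h1, hh, hτ, hσv]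
    rw [this, Finset.card_image_of_injective _ (mul_right_injective τ)]
  have hFpos : 0 < (F v).card := by
    refine Finset.card_pos.2 ⟨1, ?_⟩
    simp [F, π]
  -- preimages
  let pre : Finset V → Finset (autGroup r) := fun U => Finset.univ.filter (fun g => π g ∈ U)
  have hpre : ∀ U, (pre U).card = U.card * (F v).card := by
    intro U
    have h1 : (pre U).card = ∑ u ∈ U, ((pre U).filter (fun g => π g = u)).card := by
      apply Finset.card_eq_sum_card_fiberwise
      intro g hg
      have : π g ∈ U := by
        simpa [pre] using hg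
      exact this
    have h2 : ∀ u ∈ U, ((pre U).filter (fun g => π g = u)).card = (F v).card := by
      intro u hu
      rw [← hF u]
      congr 1
      ext g
      simp only [pre, F, Finset.mem_filter, Finset.mem_univ, true_and]
      constructor
      · rintro ⟨_, h⟩; exact h
      · intro h; exact ⟨by rw [h]; exact hu, h⟩
    rw [h1, Finset.sum_congr rfl h2]
    simp
  -- the sets
  let Nc : Finset V := insert v (outF r v)
  let Ni : Finset V := insert v (inF r v)
  let T : Finset V := insert v (outF r v ∪ secF r v)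
  let A := pre Nc
  have hA1 : (1 : autGroup r) ∈ A := by simp [A, pre, Nc, π]
  have hinv : ∀ g : autGroup r, g⁻¹ ∈ A ↔ π g ∈ Ni := by
    intro g
    simp only [A, pre, Nc, Ni, Finset.mem_filter, Finset.mem_univ, true_and, Finset.mem_insert,
      outF, inF]
    have h1 : π g⁻¹ = (g.1)⁻¹ v := rfl
    rw [h1]
    constructor
    · rintro (h | h)
      · left
        have : g.1 ((g.1)⁻¹ v) = g.1 v := by rw [h]
        simpa [π] using this.symm
      · right
        have := (hg g v _).2 h
        simpa [π] using this
    · rintro (h | h)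
      · left
        have : (g.1)⁻¹ (g.1 v) = (g.1)⁻¹ v := by
          rw [show g.1 v = v from h]
        simpa using this.symm
      · right
        have h2 : r (g.1 v) (g.1 ((g.1)⁻¹ v)) := by simpa [π] using h
        exact (hg g v _).1 h2
  let C : Finset (autGroup r) := pre Ni
  have hC1 : (1 : autGroup r) ∈ C := by simp [C, pre, Ni, π]
  have hCinv : C⁻¹ = A := by
    ext g
    simp only [Finset.mem_inv', C, pre, Finset.mem_filter, Finset.mem_univ, true_and]
    rw [← hinv g⁻¹, inv_inv]
  have hK := kemperman_union A C hA1 hC1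
  rw [hCinv] at hK
  -- the union
  have hU : A ∪ C = pre (Nc ∪ Ni) := by
    ext g
    simp [A, C, pre]
  -- the product
  have hsub : A * A ⊆ pre T := by
    intro x hx
    rcases Finset.mem_mul.1 hx with ⟨g, hgA, h, hhA, rfl⟩
    simp only [A, pre, Nc, Finset.mem_filter, Finset.mem_univ, true_and, Finset.mem_insert,
      outF] at hgA hhA
    simp only [pre, T, Finset.mem_filter, Finset.mem_univ, true_and, Finset.mem_insert,
      Finset.mem_union, outF, secF]
    have hπ : π (g * h) = g.1 (π h) := rfl
    rw [hπ]
    rcases hhA with hh | hh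
    · rw [hh]
      rcases hgA with hg' | hg'
      · left; exact hg'
      · right; left; exact hg'
    · have h1 : r (g.1 v) (g.1 (π h)) := (hg g _ _).2 hh
      rcases hgA with hg' | hg'
      · right; left
        have h2 : g.1 v = v := hg'
        rw [h2] at h1
        exact h1
      · by_cases hw : g.1 (π h) = v
        · left; exact hw
        · by_cases hw2 : r v (g.1 (π h))
          · right; left; exact hw2
          · right; right
            exact ⟨hw, hw2, g.1 v, hg', h1⟩
  have hcard : (pre (Nc ∪ Ni)).card ≤ (pre T).card := by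
    rw [← hU]
    exact le_trans hK (Finset.card_le_card hsub)
  rw [hpre, hpre] at hcard
  have hcard' : (Nc ∪ Ni).card ≤ T.card := Nat.le_of_mul_le_mul_right hcard hFpos
  -- count
  have hv1 : v ∉ outF r v := by
    simp only [outF, Finset.mem_filter, Finset.mem_univ, true_and]
    intro h
    exact hasym _ _ h h
  have hv2 : v ∉ inF r v := by
    simp only [inF, Finset.mem_filter, Finset.mem_univ, true_and]
    intro h
    exact hasym _ _ h h
  have hdisj : Disjoint (outF r v) (inF r v) := by
    rw [Finset.disjoint_left]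
    intro u hu hu'
    simp only [outF, inF, Finset.mem_filter, Finset.mem_univ, true_and] at hu hu'
    exact hasym _ _ hu hu'
  have hleft : (Nc ∪ Ni).card = 1 + (outF r v).card + (inF r v).card := by
    have h1 : Nc ∪ Ni = insert v (outF r v ∪ inF r v) := by
      ext x
      simp only [Nc, Ni, Finset.mem_union, Finset.mem_insert]
      tauto
    rw [h1, Finset.card_insert_of_notMem, Finset.card_union_of_disjoint hdisj]
    · ring
    · simp [hv1, hv2]
  have hright : T.card ≤ 1 + ((outF r v).card + (secF r v).card) := by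
    refine le_trans (Finset.card_insert_le _ _) ?_
    have := Finset.card_union_le (outF r v) (secF r v)
    omega
  omega

end Main

/-- **Main theorem**: in a finite vertex-transitive oriented graph every vertex satisfies
`|N⁺(v)| ≤ |N²(v)|`. -/
theorem second_neighbourhood_vertex_transitive {V : Type*} [Finite V] (r : V → V → Prop)
    (hasym : ∀ x y, r x y → ¬ r y x)
    (hT : ∀ a b, ∃ σ : V ≃ V, (∀ x y, r (σ x) (σ y) ↔ r x y) ∧ σ a = b) (v : V) :
    Set.ncard {u | r v u} ≤ Set.ncard {w | w ≠ v ∧ ¬ r v w ∧ ∃ u, r v u ∧ r u w} := by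
  classical
  letI : Fintype V := Fintype.ofFinite V
  have h1 : Set.ncard {u | r v u} = (outF r v).card := by
    rw [← Set.ncard_coe_finset]
    congr 1
    ext u
    simp [outF]
  have h2 : Set.ncard {w | w ≠ v ∧ ¬ r v w ∧ ∃ u, r v u ∧ r u w} = (secF r v).card := by
    rw [← Set.ncard_coe_finset]
    congr 1
    ext u
    simp [secF]
  rw [h1, h2, card_outF_eq_card_inF hT v]
  exact card_inF_le_card_secF hasym hT v

end Vale.Agent.P038

namespace Vale.Agent.P038

section Weighted

variable {V : Type*} [Fintype V] [DecidableEq V]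

open Classical in
/-- Weighted form: in a vertex-transitive oriented graph, for nonnegative weights there is a vertex
whose out-neighbourhood weighs at most as much as its second out-neighbourhood. -/
lemma weighted_exists {r : V → V → Prop} [DecidableRel r] [Nonempty V]
    (hasym : ∀ x y, r x y → ¬ r y x)
    (hT : ∀ a b, ∃ σ : V ≃ V, (∀ x y, r (σ x) (σ y) ↔ r x y) ∧ σ a = b)
    (w : V → ℝ) (hw : ∀ x, 0 ≤ w x) :
    ∃ v, ∑ u ∈ outF r v, w u ≤ ∑ u ∈ secF r v, w u := by
  classical
  -- number of `v` having `u` as second neighbour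
  let D : V → Finset V := fun u => Finset.univ.filter (fun v => u ∈ secF r v)
  have hsecEq : ∀ (σ : V ≃ V), (∀ x y, r (σ x) (σ y) ↔ r x y) → ∀ v u,
      σ u ∈ secF r (σ v) ↔ u ∈ secF r v := by
    intro σ hσ v u
    simp only [secF, Finset.mem_filter, Finset.mem_univ, true_and]
    constructor
    · rintro ⟨h1, h2, x, hx1, hx2⟩
      refine ⟨fun h => h1 (by rw [h]), fun h => h2 ((hσ _ _).2 h), σ.symm x, ?_, ?_⟩
      · apply (hσ _ _).1; simpa using hx1
      · apply (hσ _ _).1; simpa using hx2
    · rintro ⟨h1, h2, x, hx1, hx2⟩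
      exact ⟨fun h => h1 (σ.injective h), fun h => h2 ((hσ _ _).1 h), σ x, (hσ _ _).2 hx1,
        (hσ _ _).2 hx2⟩
  have hDeq : ∀ a b, (D a).card = (D b).card := by
    intro a b
    obtain ⟨σ, hσ, rfl⟩ := hT a b
    have : D (σ a) = (D a).image σ := by
      ext v
      simp only [D, Finset.mem_filter, Finset.mem_univ, true_and, Finset.mem_image]
      constructor
      · intro h
        refine ⟨σ.symm v, ?_, by simp⟩
        have := (hsecEq σ hσ (σ.symm v) a).1 (by simpa using h)
        exact this
      · rintro ⟨x, hx, rfl⟩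
        exact (hsecEq σ hσ x a).2 hx
    rw [this, Finset.card_image_of_injective _ σ.injective]
  have hsecCard : ∀ a b, (secF r a).card = (secF r b).card := by
    intro a b
    obtain ⟨σ, hσ, rfl⟩ := hT a b
    have : secF r (σ a) = (secF r a).image σ := by
      ext u
      simp only [Finset.mem_image]
      constructor
      · intro h
        refine ⟨σ.symm u, ?_, by simp⟩
        exact (hsecEq σ hσ a (σ.symm u)).1 (by simpa using h)
      · rintro ⟨x, hx, rfl⟩
        exact (hsecEq σ hσ a x).2 hx
    rw [this, Finset.card_image_of_injective _ σ.injective]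
  obtain ⟨v0⟩ := ‹Nonempty V›
  -- double counting
  have hS1 : ∑ v, ∑ u ∈ outF r v, w u = ∑ u, ((inF r u).card : ℝ) * w u := by
    have : ∀ v, ∑ u ∈ outF r v, w u = ∑ u, if r v u then w u else 0 := by
      intro v
      simp [outF, Finset.sum_filter]
    simp only [this]
    rw [Finset.sum_comm]
    refine Finset.sum_congr rfl (fun u _ => ?_)
    have : (∑ v, if r v u then w u else 0) = ∑ v ∈ inF r u, w u := by
      rw [inF, Finset.sum_filter]
    rw [this, Finset.sum_const, nsmul_eq_mul]
  have hS2 : ∑ v, ∑ u ∈ secF r v, w u = ∑ u, ((D u).card : ℝ) * w u := by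
    have : ∀ v, ∑ u ∈ secF r v, w u = ∑ u, if u ∈ secF r v then w u else 0 := by
      intro v
      rw [← Finset.sum_filter]
      congr 1
      ext u
      simp
    simp only [this]
    rw [Finset.sum_comm]
    refine Finset.sum_congr rfl (fun u _ => ?_)
    have : (∑ v, if u ∈ secF r v then w u else 0) = ∑ v ∈ D u, w u := by
      simp only [D]
      rw [Finset.sum_filter]
    rw [this, Finset.sum_const, nsmul_eq_mul]
  -- D has the same size as the second neighbourhoods
  have hDcard : (D v0).card = (secF r v0).card := by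
    have h1 : ∑ u, (D u).card = Fintype.card V * (D v0).card := by
      rw [Finset.sum_congr rfl (fun u _ => hDeq u v0)]
      simp
    have h2 : ∑ v, (secF r v).card = Fintype.card V * (secF r v0).card := by
      rw [Finset.sum_congr rfl (fun u _ => hsecCard u v0)]
      simp
    have h3 : ∑ u, (D u).card = ∑ v, (secF r v).card := by
      simp only [D, Finset.card_filter]
      rw [Finset.sum_comm]
      refine Finset.sum_congr rfl (fun v _ => ?_)
      rw [← Finset.card_filter]
      congr 1
      ext u
      simp
    rw [h1, h2] at h3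
    exact Nat.eq_of_mul_eq_mul_left (Fintype.card_pos_iff.2 ⟨v0⟩) h3
  have hin : (inF r v0).card ≤ (D v0).card := by
    rw [hDcard]
    exact card_inF_le_card_secF hasym hT v0
  have hmain : ∑ v, ∑ u ∈ outF r v, w u ≤ ∑ v, ∑ u ∈ secF r v, w u := by
    rw [hS1, hS2]
    refine Finset.sum_le_sum (fun u _ => ?_)
    apply mul_le_mul_of_nonneg_right _ (hw u)
    rw [card_inF_eq hT u v0, hDeq u v0]
    exact_mod_cast hin
  by_contra hcon
  push Not at hcon
  have : ∑ v, ∑ u ∈ secF r v, w u < ∑ v, ∑ u ∈ outF r v, w u :=
    Finset.sum_lt_sum_of_nonempty ⟨v0, Finset.mem_univ _⟩ (fun v _ => hcon v)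
  linarith

end Weighted

/-- Combined statement, with finite sums over the neighbourhoods written as `finsum`. -/
theorem vertex_transitive_main {V : Type*} [Finite V] (r : V → V → Prop)
    (hasym : ∀ x y, r x y → ¬ r y x)
    (hT : ∀ a b, ∃ σ : V ≃ V, (∀ x y, r (σ x) (σ y) ↔ r x y) ∧ σ a = b) :
    (∀ v, Set.ncard {u | r v u} ≤ Set.ncard {w | w ≠ v ∧ ¬ r v w ∧ ∃ u, r v u ∧ r u w}) ∧
    (∀ v, Set.ncard {u | r u v} = Set.ncard {u | r v u}) ∧
    (∀ [Nonempty V] (μ : V → ℝ), (∀ x, 0 ≤ μ x) →
      ∃ v, ∑ᶠ u ∈ {u | r v u}, μ u ≤ ∑ᶠ u ∈ {w | w ≠ v ∧ ¬ r v w ∧ ∃ u, r v u ∧ r u w}, μ u) := by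
  classical
  letI : Fintype V := Fintype.ofFinite V
  refine ⟨second_neighbourhood_vertex_transitive r hasym hT, ?_, ?_⟩
  · intro v
    have h1 : Set.ncard {u | r v u} = (outF r v).card := by
      rw [← Set.ncard_coe_finset]
      congr 1
      ext u
      simp [outF]
    have h2 : Set.ncard {u | r u v} = (inF r v).card := by
      rw [← Set.ncard_coe_finset]
      congr 1
      ext u
      simp [inF]
    rw [h1, h2, card_outF_eq_card_inF hT v]
  · intro _ μ hμ
    obtain ⟨v, hv⟩ := weighted_exists (r := r) hasym hT μ hμ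
    refine ⟨v, ?_⟩
    have h1 : ({u | r v u} : Set V) = ((outF r v : Finset V) : Set V) := by
      ext u
      simp [outF]
    have h2 : ({w | w ≠ v ∧ ¬ r v w ∧ ∃ u, r v u ∧ r u w} : Set V) =
        ((secF r v : Finset V) : Set V) := by
      ext u
      simp [secF]
    rw [h1, h2, finsum_mem_coe_finset, finsum_mem_coe_finset]
    exact hv

end Vale.Agent.P038
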